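import Mathlib
import Vale.Agent.P034.Defs
import Vale.Agent.P034.Main

namespace Vale.Agent.Results.P034.A0_LargeSupports

open Vale.Agent.P034

/-- Fractional covers living on large sets can be rounded with a constant loss.
`F` is any family of subsets of a finite set `X` in which every member contains a member of
size at most `l`, and `g` is a fractional cover of `F` of cost at most one half at `p` that is
positive only on sets of size at least `t`.  Then `F` is `(p / L)`-small as soon as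
`8 (l + 2) ^ 2 ≤ (L / 2) ^ t`; in particular `F` is `(p / 256)`-small when `l ≤ 2 ^ t`. -/
theorem result {X : Type*} [Fintype X] [DecidableEq X]
    (F : Finset (Finset X)) (g : Finset X → ℝ) (p : ℝ) (t l : ℕ) (hp : 0 ≤ p)
    (hg : IsFracCover g F) (hcost : fracCost g p ≤ 1 / 2)
    (hsupp : ∀ S, g S ≠ 0 → t ≤ S.card)
    (hmin : ∀ H ∈ F, ∃ H' ∈ F, H' ⊆ H ∧ H'.card ≤ l) :
    (∀ L : ℝ, 2 ≤ L → 8 * ((l : ℝ) + 2) ^ 2 ≤ (L / 2) ^ t → PSmall F (p / L)) ∧
      (1 ≤ t → l ≤ 2 ^ t → PSmall F (p / 256)) := by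
  have hcert : ∀ H ∈ F, ∃ H' ⊆ H, H'.card ≤ l ∧ 1 ≤ ∑ S ∈ H'.powerset, g S := by
    intro H hH
    obtain ⟨H', hH', hsub, hcard⟩ := hmin H hH
    exact ⟨H', hsub, hcard, hg.2 H' hH'⟩
  have hg0 : ∀ S, 0 ≤ g S := fun S => (hg.1 S).1
  refine ⟨fun L hL hLt => large_gen F g p L t l hp hL hg0 hcert hcost hsupp hLt, ?_⟩
  intro ht hl
  exact large_gen F g p 256 t l hp (by norm_num) hg0 hcert hcost hsupp (num_bound t l ht hl)

end Vale.Agent.Results.P034.A0_LargeSupports
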