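import Mathlib
import Vale.Agent.P034.Defs
import Vale.Agent.P034.Main

namespace Vale.Agent.Results.P034.A1_Criterion

open Vale.Agent.P034

/-- A dimension-free rounding criterion.  If every member of `F` contains a member of size at
most `l` and some fractional cover of `F` has cost at most `1 / (16 (l + 2) ^ 2)` at `2 q`,
then `F` is `q`-small. -/
theorem result {X : Type*} [Fintype X] [DecidableEq X]
    (F : Finset (Finset X)) (g : Finset X → ℝ) (q : ℝ) (l : ℕ) (hq : 0 ≤ q)
    (hg : IsFracCover g F)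
    (hmin : ∀ H ∈ F, ∃ H' ∈ F, H' ⊆ H ∧ H'.card ≤ l)
    (hw : 16 * ((l : ℝ) + 2) ^ 2 * fracCost g (2 * q) ≤ 1) :
    PSmall F q := by
  have hcert : ∀ H ∈ F, ∃ H' ⊆ H, H'.card ≤ l ∧ 1 ≤ ∑ S ∈ H'.powerset, g S := by
    intro H hH
    obtain ⟨H', hH', hsub, hcard⟩ := hmin H hH
    exact ⟨H', hsub, hcard, hg.2 H' hH'⟩
  exact criterion_gen F g q l hq (fun S => (hg.1 S).1) hcert hw

end Vale.Agent.Results.P034.A1_Criterion
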