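import Mathlib
import Vale.Agent.P034.Defs
import Vale.Agent.P034.Reduce

namespace Vale.Agent.Results.P034.A2_Reduction

open Vale.Agent.P034

/-- Reduction of the comparison problem to fractional covers living on sets of size below
`log_2 l`.  `F` is a family on a finite set `X` in which every member contains a member of size at
most `l`, with a fractional cover `g` of cost at most one half at `p`.
First part: if `l ≤ 2 ^ t` and every family on `X` having a fractional cover of cost at most one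
half at `p'` that is positive only on sets of size below `t` is `(p' / Lt)`-small, then `F` is
`p / (8 max (256, Lt))`-small.
Second part: if covers positive only on sets of size at most `s` can always be rounded with loss
`C log (2 s)`, then `F` is `p / (8 max (256, C log (2 ⌈log_2 l⌉)))`-small. -/
theorem result {X : Type*} [Fintype X] [DecidableEq X]
    (F : Finset (Finset X)) (g : Finset X → ℝ) (p : ℝ) (l : ℕ) (hp : 0 ≤ p)
    (hg : IsFracCover g F) (hcost : fracCost g p ≤ 1 / 2)
    (hmin : ∀ H ∈ F, ∃ H' ∈ F, H' ⊆ H ∧ H'.card ≤ l) :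
    (∀ (t : ℕ) (Lt : ℝ), 1 ≤ t → l ≤ 2 ^ t → 1 ≤ Lt →
      (∀ (F' : Finset (Finset X)) (g' : Finset X → ℝ) (p' : ℝ), 0 ≤ p' →
        IsFracCover g' F' → fracCost g' p' ≤ 1 / 2 → (∀ S, g' S ≠ 0 → S.card < t) →
        PSmall F' (p' / Lt)) →
      PSmall F (p / (8 * max 256 Lt))) ∧
    (∀ C : ℝ, 2 ≤ C → 2 ≤ l →
      (∀ (s : ℕ) (F' : Finset (Finset X)) (g' : Finset X → ℝ) (p' : ℝ), 1 ≤ s → 0 ≤ p' →
        IsFracCover g' F' → fracCost g' p' ≤ 1 / 2 → (∀ S, g' S ≠ 0 → S.card ≤ s) →
        PSmall F' (p' / (C * Real.log (2 * (s : ℝ))))) →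
      PSmall F (p / (8 * max 256 (C * Real.log (2 * (Nat.clog 2 l : ℝ)))))) := by
  refine ⟨fun t Lt ht hl hLt hyp => reduction F g p Lt t l hp hg hcost hmin ht hl hLt hyp, ?_⟩
  intro C hC hl2 hyp
  have ht : 1 ≤ Nat.clog 2 l := Nat.clog_pos (by norm_num) hl2
  have hl : l ≤ 2 ^ Nat.clog 2 l := Nat.le_pow_clog (by norm_num) l
  have hlog : Real.log 2 ≤ Real.log (2 * (Nat.clog 2 l : ℝ)) := by
    apply Real.log_le_log (by norm_num)
    have : (1 : ℝ) ≤ (Nat.clog 2 l : ℝ) := by exact_mod_cast ht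
    linarith
  have hLt : 1 ≤ C * Real.log (2 * (Nat.clog 2 l : ℝ)) := by
    have h1 := Real.log_two_gt_d9
    have h2 : (0.6931471803 : ℝ) < Real.log (2 * (Nat.clog 2 l : ℝ)) := lt_of_lt_of_le h1 hlog
    nlinarith
  apply reduction F g p _ (Nat.clog 2 l) l hp hg hcost hmin ht hl hLt
  intro F' g' p' hp' hg' hc' hs'
  exact hyp (Nat.clog 2 l) F' g' p' ht hp' hg' hc' (fun S hS => (hs' S hS).le)

end Vale.Agent.Results.P034.A2_Reduction
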