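import Mathlib
import Vale.Agent.P034.Defs
import Vale.Agent.Results.P034.A0_LargeSupports
import Vale.Agent.Results.P034.A1_Criterion
import Vale.Agent.Results.P034.A2_Reduction

namespace Vale.Agent.Results.P034.A00_Combined

open Vale.Agent.P034

/-- Three rounding theorems for fractional covers, free of the size of the ground set.
`F` is any family of subsets of a finite set `X` in which every member contains a member of
size at most `l`.
First part: a fractional cover of cost at most `1 / (16 (l + 2) ^ 2)` at `2 q` makes `F` `q`-small.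
Second part: a fractional cover of cost at most one half at `p` that is positive only on sets of
size at least `t` makes `F` `(p / L)`-small when `8 (l + 2) ^ 2 ≤ (L / 2) ^ t`, and
`(p / 256)`-small when `l ≤ 2 ^ t`.
Third part: the comparison for `F` reduces to fractional covers positive only on sets of size
below `t` when `l ≤ 2 ^ t`, and a rounding loss `C log (2 s)` for covers positive only on sets of
size at most `s` gives the loss `8 max (256, C log (2 ⌈log_2 l⌉))` for `F`. -/
theorem result {X : Type*} [Fintype X] [DecidableEq X]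
    (F : Finset (Finset X)) (l : ℕ)
    (hmin : ∀ H ∈ F, ∃ H' ∈ F, H' ⊆ H ∧ H'.card ≤ l) :
    (∀ (g : Finset X → ℝ) (q : ℝ), 0 ≤ q → IsFracCover g F →
      16 * ((l : ℝ) + 2) ^ 2 * fracCost g (2 * q) ≤ 1 → PSmall F q) ∧
    (∀ (g : Finset X → ℝ) (p : ℝ) (t : ℕ), 0 ≤ p → IsFracCover g F → fracCost g p ≤ 1 / 2 →
      (∀ S, g S ≠ 0 → t ≤ S.card) →
      (∀ L : ℝ, 2 ≤ L → 8 * ((l : ℝ) + 2) ^ 2 ≤ (L / 2) ^ t → PSmall F (p / L)) ∧
        (1 ≤ t → l ≤ 2 ^ t → PSmall F (p / 256))) ∧
    (∀ (g : Finset X → ℝ) (p : ℝ), 0 ≤ p → IsFracCover g F → fracCost g p ≤ 1 / 2 →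
      (∀ (t : ℕ) (Lt : ℝ), 1 ≤ t → l ≤ 2 ^ t → 1 ≤ Lt →
        (∀ (F' : Finset (Finset X)) (g' : Finset X → ℝ) (p' : ℝ), 0 ≤ p' →
          IsFracCover g' F' → fracCost g' p' ≤ 1 / 2 → (∀ S, g' S ≠ 0 → S.card < t) →
          PSmall F' (p' / Lt)) →
        PSmall F (p / (8 * max 256 Lt))) ∧
      (∀ C : ℝ, 2 ≤ C → 2 ≤ l →
        (∀ (s : ℕ) (F' : Finset (Finset X)) (g' : Finset X → ℝ) (p' : ℝ), 1 ≤ s → 0 ≤ p' →
          IsFracCover g' F' → fracCost g' p' ≤ 1 / 2 → (∀ S, g' S ≠ 0 → S.card ≤ s) →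
          PSmall F' (p' / (C * Real.log (2 * (s : ℝ))))) →
        PSmall F (p / (8 * max 256 (C * Real.log (2 * (Nat.clog 2 l : ℝ))))))) :=
  ⟨fun g q hq hg hw => A1_Criterion.result F g q l hq hg hmin hw,
    fun g p t hp hg hcost hsupp => A0_LargeSupports.result F g p t l hp hg hcost hsupp hmin,
    fun g p hp hg hcost => A2_Reduction.result F g p l hp hg hcost hmin⟩

end Vale.Agent.Results.P034.A00_Combined
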